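import Vale.Agent.P267.H399.Defs

/-!
# P267 BRIDGE-ALT: pointwise vector space structures on `OneF X`, `TwoF X`
-/

open scoped ComplexConjugate

noncomputable section

namespace Vale.Agent.P267.FL

variable {X : Type*}

namespace OneF

@[ext] theorem ext {A B : OneF X} (h1 : A.f10 = B.f10) (h2 : A.f01 = B.f01) : A = B := by
  cases A; cases B; cases h1; cases h2; rfl

/-- `OneF X` as a product -/
def equivProd : OneF X ≃ (X → Fin 2 → ℂ) × (X → Fin 2 → ℂ) where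
  toFun A := (A.f10, A.f01)
  invFun p := ⟨p.1, p.2⟩
  left_inv _ := rfl
  right_inv _ := rfl

instance : Zero (OneF X) := ⟨⟨0, 0⟩⟩
instance : Add (OneF X) := ⟨fun A B => ⟨A.f10 + B.f10, A.f01 + B.f01⟩⟩
instance : Neg (OneF X) := ⟨fun A => ⟨-A.f10, -A.f01⟩⟩
instance : Sub (OneF X) := ⟨fun A B => ⟨A.f10 - B.f10, A.f01 - B.f01⟩⟩
instance : SMul ℂ (OneF X) := ⟨fun c A => ⟨c • A.f10, c • A.f01⟩⟩
instance : SMul ℝ (OneF X) := ⟨fun c A => ⟨c • A.f10, c • A.f01⟩⟩
instance : SMul ℕ (OneF X) := ⟨fun c A => ⟨c • A.f10, c • A.f01⟩⟩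
instance : SMul ℤ (OneF X) := ⟨fun c A => ⟨c • A.f10, c • A.f01⟩⟩

@[simp] theorem f10_zero : (0 : OneF X).f10 = 0 := rfl
@[simp] theorem f01_zero : (0 : OneF X).f01 = 0 := rfl
@[simp] theorem f10_add (A B : OneF X) : (A + B).f10 = A.f10 + B.f10 := rfl
@[simp] theorem f01_add (A B : OneF X) : (A + B).f01 = A.f01 + B.f01 := rfl
@[simp] theorem f10_neg (A : OneF X) : (-A).f10 = -A.f10 := rfl
@[simp] theorem f01_neg (A : OneF X) : (-A).f01 = -A.f01 := rfl
@[simp] theorem f10_sub (A B : OneF X) : (A - B).f10 = A.f10 - B.f10 := rfl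
@[simp] theorem f01_sub (A B : OneF X) : (A - B).f01 = A.f01 - B.f01 := rfl
@[simp] theorem f10_smul (c : ℂ) (A : OneF X) : (c • A).f10 = c • A.f10 := rfl
@[simp] theorem f01_smul (c : ℂ) (A : OneF X) : (c • A).f01 = c • A.f01 := rfl
@[simp] theorem f10_smulR (c : ℝ) (A : OneF X) : (c • A).f10 = c • A.f10 := rfl
@[simp] theorem f01_smulR (c : ℝ) (A : OneF X) : (c • A).f01 = c • A.f01 := rfl

instance : AddCommGroup (OneF X) :=
  Function.Injective.addCommGroup equivProd equivProd.injective rfl (fun _ _ => rfl) (fun _ => rfl)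
    (fun _ _ => rfl) (fun _ _ => rfl) (fun _ _ => rfl)

/-- `equivProd` as an additive homomorphism -/
def toProd : OneF X →+ (X → Fin 2 → ℂ) × (X → Fin 2 → ℂ) where
  toFun := equivProd
  map_zero' := rfl
  map_add' _ _ := rfl

instance : Module ℂ (OneF X) :=
  Function.Injective.module ℂ toProd equivProd.injective fun _ _ => rfl

instance : Module ℝ (OneF X) :=
  Function.Injective.module ℝ toProd equivProd.injective fun _ _ => rfl

instance : IsScalarTower ℝ ℂ (OneF X) := ⟨fun r c A => by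
  ext1
  · exact smul_assoc r c A.f10
  · exact smul_assoc r c A.f01⟩

/-- `f10` as a linear map -/
def lf10 : OneF X →ₗ[ℂ] (X → Fin 2 → ℂ) := ⟨⟨OneF.f10, fun _ _ => rfl⟩, fun _ _ => rfl⟩
/-- `f01` as a linear map -/
def lf01 : OneF X →ₗ[ℂ] (X → Fin 2 → ℂ) := ⟨⟨OneF.f01, fun _ _ => rfl⟩, fun _ _ => rfl⟩

@[simp] theorem f10_sum {ι : Type*} (s : Finset ι) (A : ι → OneF X) :
    (∑ i ∈ s, A i).f10 = ∑ i ∈ s, (A i).f10 := map_sum lf10 A s
@[simp] theorem f01_sum {ι : Type*} (s : Finset ι) (A : ι → OneF X) :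
    (∑ i ∈ s, A i).f01 = ∑ i ∈ s, (A i).f01 := map_sum lf01 A s

/-- complex conjugation -/
def bar (A : OneF X) : OneF X :=
  ⟨fun x i => starRingEnd ℂ (A.f01 x i), fun x i => starRingEnd ℂ (A.f10 x i)⟩

/-- real one-form -/
def Real (A : OneF X) : Prop := ∀ x i, A.f10 x i = starRingEnd ℂ (A.f01 x i)

theorem real_iff_bar (A : OneF X) : A.Real ↔ A.bar = A := by
  constructor
  · intro h
    ext x i
    · exact (h x i).symm
    · change starRingEnd ℂ (A.f10 x i) = A.f01 x i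
      rw [h x i, Complex.conj_conj]
  · intro h x i
    exact (congrFun (congrFun (congrArg OneF.f10 h) x) i).symm

end OneF

namespace TwoF

@[ext] theorem ext {A B : TwoF X} (h1 : A.f20 = B.f20) (h2 : A.f11 = B.f11) (h3 : A.f02 = B.f02) :
    A = B := by
  cases A; cases B; cases h1; cases h2; cases h3; rfl

/-- `TwoF X` as a product -/
def equivProd : TwoF X ≃ (X → ℂ) × (X → Matrix (Fin 2) (Fin 2) ℂ) × (X → ℂ) where
  toFun A := (A.f20, A.f11, A.f02)
  invFun p := ⟨p.1, p.2.1, p.2.2⟩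
  left_inv _ := rfl
  right_inv _ := rfl

instance : Zero (TwoF X) := ⟨⟨0, 0, 0⟩⟩
instance : Add (TwoF X) := ⟨fun A B => ⟨A.f20 + B.f20, A.f11 + B.f11, A.f02 + B.f02⟩⟩
instance : Neg (TwoF X) := ⟨fun A => ⟨-A.f20, -A.f11, -A.f02⟩⟩
instance : Sub (TwoF X) := ⟨fun A B => ⟨A.f20 - B.f20, A.f11 - B.f11, A.f02 - B.f02⟩⟩
instance : SMul ℂ (TwoF X) := ⟨fun c A => ⟨c • A.f20, c • A.f11, c • A.f02⟩⟩
instance : SMul ℝ (TwoF X) := ⟨fun c A => ⟨c • A.f20, c • A.f11, c • A.f02⟩⟩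
instance : SMul ℕ (TwoF X) := ⟨fun c A => ⟨c • A.f20, c • A.f11, c • A.f02⟩⟩
instance : SMul ℤ (TwoF X) := ⟨fun c A => ⟨c • A.f20, c • A.f11, c • A.f02⟩⟩

@[simp] theorem f20_zero : (0 : TwoF X).f20 = 0 := rfl
@[simp] theorem f11_zero : (0 : TwoF X).f11 = 0 := rfl
@[simp] theorem f02_zero : (0 : TwoF X).f02 = 0 := rfl
@[simp] theorem f20_add (A B : TwoF X) : (A + B).f20 = A.f20 + B.f20 := rfl
@[simp] theorem f11_add (A B : TwoF X) : (A + B).f11 = A.f11 + B.f11 := rfl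
@[simp] theorem f02_add (A B : TwoF X) : (A + B).f02 = A.f02 + B.f02 := rfl
@[simp] theorem f20_neg (A : TwoF X) : (-A).f20 = -A.f20 := rfl
@[simp] theorem f11_neg (A : TwoF X) : (-A).f11 = -A.f11 := rfl
@[simp] theorem f02_neg (A : TwoF X) : (-A).f02 = -A.f02 := rfl
@[simp] theorem f20_sub (A B : TwoF X) : (A - B).f20 = A.f20 - B.f20 := rfl
@[simp] theorem f11_sub (A B : TwoF X) : (A - B).f11 = A.f11 - B.f11 := rfl
@[simp] theorem f02_sub (A B : TwoF X) : (A - B).f02 = A.f02 - B.f02 := rfl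
@[simp] theorem f20_smul (c : ℂ) (A : TwoF X) : (c • A).f20 = c • A.f20 := rfl
@[simp] theorem f11_smul (c : ℂ) (A : TwoF X) : (c • A).f11 = c • A.f11 := rfl
@[simp] theorem f02_smul (c : ℂ) (A : TwoF X) : (c • A).f02 = c • A.f02 := rfl
@[simp] theorem f20_smulR (c : ℝ) (A : TwoF X) : (c • A).f20 = c • A.f20 := rfl
@[simp] theorem f11_smulR (c : ℝ) (A : TwoF X) : (c • A).f11 = c • A.f11 := rfl
@[simp] theorem f02_smulR (c : ℝ) (A : TwoF X) : (c • A).f02 = c • A.f02 := rfl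

instance : AddCommGroup (TwoF X) :=
  Function.Injective.addCommGroup equivProd equivProd.injective rfl (fun _ _ => rfl) (fun _ => rfl)
    (fun _ _ => rfl) (fun _ _ => rfl) (fun _ _ => rfl)

/-- `equivProd` as an additive homomorphism -/
def toProd : TwoF X →+ (X → ℂ) × (X → Matrix (Fin 2) (Fin 2) ℂ) × (X → ℂ) where
  toFun := equivProd
  map_zero' := rfl
  map_add' _ _ := rfl

instance : Module ℂ (TwoF X) :=
  Function.Injective.module ℂ toProd equivProd.injective fun _ _ => rfl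

instance : Module ℝ (TwoF X) :=
  Function.Injective.module ℝ toProd equivProd.injective fun _ _ => rfl

instance : IsScalarTower ℝ ℂ (TwoF X) := ⟨fun r c A => by
  ext1
  · exact smul_assoc r c A.f20
  · exact smul_assoc r c A.f11
  · exact smul_assoc r c A.f02⟩

/-- `f20` as a linear map -/
def lf20 : TwoF X →ₗ[ℂ] (X → ℂ) := ⟨⟨TwoF.f20, fun _ _ => rfl⟩, fun _ _ => rfl⟩
/-- `f11` as a linear map -/
def lf11 : TwoF X →ₗ[ℂ] (X → Matrix (Fin 2) (Fin 2) ℂ) := ⟨⟨TwoF.f11, fun _ _ => rfl⟩, fun _ _ => rfl⟩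
/-- `f02` as a linear map -/
def lf02 : TwoF X →ₗ[ℂ] (X → ℂ) := ⟨⟨TwoF.f02, fun _ _ => rfl⟩, fun _ _ => rfl⟩

@[simp] theorem f20_sum {ι : Type*} (s : Finset ι) (A : ι → TwoF X) :
    (∑ i ∈ s, A i).f20 = ∑ i ∈ s, (A i).f20 := map_sum lf20 A s
@[simp] theorem f11_sum {ι : Type*} (s : Finset ι) (A : ι → TwoF X) :
    (∑ i ∈ s, A i).f11 = ∑ i ∈ s, (A i).f11 := map_sum lf11 A s
@[simp] theorem f02_sum {ι : Type*} (s : Finset ι) (A : ι → TwoF X) :
    (∑ i ∈ s, A i).f02 = ∑ i ∈ s, (A i).f02 := map_sum lf02 A s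

/-- complex conjugation -/
def bar (A : TwoF X) : TwoF X :=
  ⟨fun x => starRingEnd ℂ (A.f02 x), fun x => Matrix.of fun i j => -starRingEnd ℂ (A.f11 x j i),
    fun x => starRingEnd ℂ (A.f20 x)⟩

theorem real_iff_bar [TopologicalSpace X] [ChartedSpace C2 X] (A : TwoF X) :
    A.Real ↔ A.bar = A := by
  constructor
  · intro h
    ext x
    · exact (h x).1.symm
    · change -starRingEnd ℂ (A.f11 x _ _) = _
      rw [(h x).2, map_neg, Complex.conj_conj, neg_neg]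
    · change starRingEnd ℂ (A.f20 x) = A.f02 x
      rw [(h x).1, Complex.conj_conj]
  · intro h x
    refine ⟨(congrFun (congrArg TwoF.f20 h) x).symm, fun i j => ?_⟩
    have := congrFun (congrFun (congrFun (congrArg TwoF.f11 h) x) j) i
    exact this.symm

end TwoF

end Vale.Agent.P267.FL
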