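import Mathlib

/-!
# P267 BRIDGE-ALT (7): linear algebra of Betti numbers
-/

open scoped ComplexConjugate

noncomputable section

namespace Vale.Agent.P267.H857

section general

variable {K V W : Type*} [Field K] [AddCommGroup V] [Module K V] [AddCommGroup W] [Module K W]

/-- `n` elements of `Z` which are a basis of `Z` modulo `B` -/
def IsBetti (Z B : Submodule K V) (n : ℕ) : Prop :=
  ∃ a : Fin n → V, (∀ i, a i ∈ Z) ∧ ∀ c ∈ Z, ∃! t : Fin n → K, c - ∑ i, t i • a i ∈ B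

/-- the quotient `Z / (B ∩ Z)` -/
abbrev HQ (Z B : Submodule K V) : Type _ := Z ⧸ B.comap Z.subtype

theorem isBetti_iff (Z B : Submodule K V) (n : ℕ) :
    IsBetti Z B n ↔ Nonempty (HQ Z B ≃ₗ[K] (Fin n → K)) := by
  constructor
  · rintro ⟨a, ha, h⟩
    let f : (Fin n → K) →ₗ[K] HQ Z B := (Submodule.mkQ _).comp
      (Fintype.linearCombination K (fun i => (⟨a i, ha i⟩ : Z)))
    have hf : ∀ t : Fin n → K, f t = Submodule.Quotient.mk (∑ i, t i • (⟨a i, ha i⟩ : Z)) := by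
      intro t
      change Submodule.Quotient.mk (Fintype.linearCombination K _ t) = _
      rw [Fintype.linearCombination_apply]
    have hinj : Function.Injective f := by
      rw [injective_iff_map_eq_zero]
      intro t ht
      rw [hf, Submodule.Quotient.mk_eq_zero] at ht
      have ht2 : ∑ i, t i • a i ∈ B := by
        have : ((∑ i, t i • (⟨a i, ha i⟩ : Z) : Z) : V) ∈ B := ht
        simpa using this
      obtain ⟨t0, -, h2⟩ := h 0 Z.zero_mem
      have e1 := h2 (-t) (by simpa using ht2)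
      have e2 := h2 0 (by simp)
      rw [← e2, neg_eq_zero] at e1
      exact e1
    have hsurj : Function.Surjective f := by
      intro y
      obtain ⟨⟨c, hc⟩, rfl⟩ := Submodule.Quotient.mk_surjective _ y
      obtain ⟨t, ht, -⟩ := h c hc
      refine ⟨t, ?_⟩
      rw [hf, eq_comm, Submodule.Quotient.eq]
      change ((⟨c, hc⟩ - ∑ i, t i • (⟨a i, ha i⟩ : Z) : Z) : V) ∈ B
      simpa using ht
    exact ⟨(LinearEquiv.ofBijective f ⟨hinj, hsurj⟩).symm⟩
  · rintro ⟨g⟩
    have hex : ∀ i : Fin n, ∃ z : Z, (Submodule.Quotient.mk z : HQ Z B) = g.symm (Pi.single i 1) :=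
      fun i => Submodule.Quotient.mk_surjective _ _
    choose a ha using hex
    refine ⟨fun i => (a i : V), fun i => (a i).2, ?_⟩
    intro c hc
    have key : ∀ t : Fin n → K, (c - ∑ i, t i • (a i : V) ∈ B) ↔
        t = g (Submodule.Quotient.mk ⟨c, hc⟩) := by
      intro t
      have h1 : (c - ∑ i, t i • (a i : V) ∈ B) ↔
          (⟨c, hc⟩ - ∑ i, t i • a i : Z) ∈ B.comap Z.subtype := by
        rw [Submodule.mem_comap]
        simp
      rw [h1, ← Submodule.Quotient.mk_eq_zero, Submodule.Quotient.mk_sub, sub_eq_zero]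
      have h2 : (Submodule.Quotient.mk (∑ i, t i • a i) : HQ Z B) = g.symm t := by
        change (Submodule.mkQ _ (∑ i, t i • a i) : HQ Z B) = _
        rw [map_sum]
        have h3 : t = ∑ i, t i • (Pi.single i 1 : Fin n → K) := by
          funext j
          simp [Finset.sum_apply, Pi.single_apply]
        conv_rhs => rw [h3, map_sum]
        refine Finset.sum_congr rfl fun i _ => ?_
        rw [map_smul, map_smul, ← ha i]
        rfl
      rw [h2]
      constructor
      · intro h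
        rw [h, LinearEquiv.apply_symm_apply]
      · intro h
        rw [h, LinearEquiv.symm_apply_apply]
    exact ⟨g (Submodule.Quotient.mk ⟨c, hc⟩), (key _).2 rfl, fun t ht => (key t).1 ht⟩

theorem isBetti_iff_finrank (Z B : Submodule K V) (n : ℕ) :
    IsBetti Z B n ↔ Module.Finite K (HQ Z B) ∧ Module.finrank K (HQ Z B) = n := by
  rw [isBetti_iff]
  constructor
  · rintro ⟨g⟩
    have h := Module.Finite.equiv g.symm
    refine ⟨h, ?_⟩
    rw [g.finrank_eq, Module.finrank_fin_fun]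
  · rintro ⟨h1, h2⟩
    exact ⟨LinearEquiv.ofFinrankEq _ _ (by rw [h2, Module.finrank_fin_fun])⟩

theorem isBetti_unique {Z B : Submodule K V} {m n : ℕ} (h1 : IsBetti Z B m) (h2 : IsBetti Z B n) :
    m = n := by
  rw [isBetti_iff_finrank] at h1 h2
  rw [← h1.2, h2.2]

/-- transport -/
theorem isBetti_map {Z B : Submodule K V} {Z' B' : Submodule K W} (φ : V →ₗ[K] W)
    (hZ : Z.map φ = Z') (hB : ∀ v ∈ Z, φ v ∈ B' ↔ v ∈ B) (n : ℕ) :
    IsBetti Z B n ↔ IsBetti Z' B' n := by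
  subst hZ
  constructor
  · rintro ⟨a, ha, h⟩
    refine ⟨fun i => φ (a i), fun i => ⟨a i, ha i, rfl⟩, ?_⟩
    rintro _ ⟨c, hc, rfl⟩
    obtain ⟨t, ht, h2⟩ := h c hc
    have key : ∀ s : Fin n → K, (φ c - ∑ i, s i • φ (a i) ∈ B') ↔ (c - ∑ i, s i • a i ∈ B) := by
      intro s
      rw [← hB _ (Z.sub_mem hc (Z.sum_mem fun i _ => Z.smul_mem _ (ha i))), map_sub, map_sum]
      simp only [map_smul]
    exact ⟨t, (key t).2 ht, fun s hs => h2 s ((key s).1 hs)⟩
  · rintro ⟨a, ha, h⟩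
    choose b hb hab using ha
    refine ⟨b, hb, ?_⟩
    intro c hc
    obtain ⟨t, ht, h2⟩ := h (φ c) ⟨c, hc, rfl⟩
    have key : ∀ s : Fin n → K, (φ c - ∑ i, s i • a i ∈ B') ↔ (c - ∑ i, s i • b i ∈ B) := by
      intro s
      rw [← hB _ (Z.sub_mem hc (Z.sum_mem fun i _ => Z.smul_mem _ (hb i))), map_sub, map_sum]
      simp only [map_smul, hab]
    exact ⟨t, (key t).1 ht, fun s hs => h2 s ((key s).2 hs)⟩

end general

section complexify

variable {V W : Type*} [AddCommGroup V] [Module ℂ V] [Module ℝ V] [IsScalarTower ℝ ℂ V]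
  [AddCommGroup W] [Module ℝ W]

/-- A real structure on the complex space `V`: `W` is the space of real elements. -/
structure RealStr (ι : W →ₗ[ℝ] V) (σ : V → V) : Prop where
  add : ∀ u v, σ (u + v) = σ u + σ v
  smul : ∀ (c : ℂ) v, σ (c • v) = conj c • σ v
  invol : ∀ v, σ (σ v) = v
  inj : Function.Injective ι
  fix : ∀ v, σ v = v ↔ v ∈ LinearMap.range ι

theorem real_smul_eq (r : ℝ) (v : V) : (r : ℂ) • v = r • v := by
  rw [← algebraMap_smul ℂ r v]; rfl

omit [IsScalarTower ℝ ℂ V] in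
theorem RealStr.decomp {ι : W →ₗ[ℝ] V} {σ : V → V} (h : RealStr ι σ) (v : V) :
    ∃ x y : W, v = ι x + Complex.I • ι y ∧ ι x = (1 / 2 : ℂ) • (v + σ v) ∧
      ι y = (-Complex.I / 2 : ℂ) • (v - σ v) := by
  have hsub : ∀ u w, σ (u - w) = σ u - σ w := by
    intro u w
    have h1 := h.add u ((-1 : ℂ) • w)
    rw [h.smul] at h1
    simpa [sub_eq_add_neg] using h1
  have h1 : σ ((1 / 2 : ℂ) • (v + σ v)) = (1 / 2 : ℂ) • (v + σ v) := by
    rw [h.smul, h.add, h.invol, add_comm, map_div₀, map_one, map_ofNat]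
  have h2 : σ ((-Complex.I / 2 : ℂ) • (v - σ v)) = (-Complex.I / 2 : ℂ) • (v - σ v) := by
    rw [h.smul, hsub, h.invol]
    simp only [map_div₀, map_neg, Complex.conj_I, neg_neg, map_ofNat]
    rw [← neg_sub v (σ v), smul_neg, ← neg_smul]
    congr 1
    ring
  obtain ⟨x, hx⟩ := (h.fix _).1 h1
  obtain ⟨y, hy⟩ := (h.fix _).1 h2
  refine ⟨x, y, ?_, hx, hy⟩
  rw [hx, hy, smul_smul]
  have e : Complex.I * (-Complex.I / 2) = 1 / 2 := by
    rw [mul_div_assoc', mul_neg, Complex.I_mul_I]; norm_num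
  rw [e, ← smul_add]
  have e2 : v + σ v + (v - σ v) = (2 : ℂ) • v := by
    rw [two_smul]; abel
  rw [e2, smul_smul]
  norm_num

omit [IsScalarTower ℝ ℂ V] in
theorem RealStr.sigma_iota {ι : W →ₗ[ℝ] V} {σ : V → V} (h : RealStr ι σ) (w : W) :
    σ (ι w) = ι w := (h.fix _).2 ⟨w, rfl⟩

omit [IsScalarTower ℝ ℂ V] in
theorem RealStr.sigma_comb {ι : W →ₗ[ℝ] V} {σ : V → V} (h : RealStr ι σ) (x y : W) :
    σ (ι x + Complex.I • ι y) = ι x - Complex.I • ι y := by
  rw [h.add, h.smul, h.sigma_iota, h.sigma_iota, Complex.conj_I, neg_smul, sub_eq_add_neg]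

theorem RealStr.mem_iff {ι : W →ₗ[ℝ] V} {σ : V → V} (h : RealStr ι σ) {B : Submodule ℂ V}
    {B' : Submodule ℝ W} (hσ : ∀ v ∈ B, σ v ∈ B) (hB : ∀ w, ι w ∈ B ↔ w ∈ B') (x y : W) :
    ι x + Complex.I • ι y ∈ B ↔ x ∈ B' ∧ y ∈ B' := by
  constructor
  · intro hm
    have h2 := hσ _ hm
    rw [h.sigma_comb] at h2
    constructor
    · rw [← hB]
      have h3 := B.smul_mem (1 / 2 : ℂ) (B.add_mem hm h2)
      have e : ι x + Complex.I • ι y + (ι x - Complex.I • ι y) = (2 : ℂ) • ι x := by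
        rw [two_smul]; abel
      rw [e, smul_smul] at h3
      simpa using h3
    · rw [← hB]
      have h3 := B.smul_mem (-Complex.I / 2 : ℂ) (B.sub_mem hm h2)
      have e : ι x + Complex.I • ι y - (ι x - Complex.I • ι y) = (2 * Complex.I : ℂ) • ι y := by
        rw [mul_smul, two_smul]; abel
      rw [e, smul_smul] at h3
      have e2 : (-Complex.I / 2 : ℂ) * (2 * Complex.I) = 1 := by
        have : (-Complex.I / 2 : ℂ) * (2 * Complex.I) = -(Complex.I * Complex.I) := by ring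
        rw [this, Complex.I_mul_I, neg_neg]
      rw [e2, one_smul] at h3
      exact h3
  · rintro ⟨h1, h2⟩
    exact B.add_mem ((hB x).2 h1) (B.smul_mem _ ((hB y).2 h2))

theorem RealStr.comb {ι : W →ₗ[ℝ] V} (n : ℕ) (a : Fin n → W) (x y : W) (t : Fin n → ℂ) :
    ι x + Complex.I • ι y - ∑ i, t i • ι (a i) =
      ι (x - ∑ i, (t i).re • a i) + Complex.I • ι (y - ∑ i, (t i).im • a i) := by
  have h : ∀ i, t i • ι (a i) = ι ((t i).re • a i) + Complex.I • ι ((t i).im • a i) := by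
    intro i
    rw [map_smul, map_smul, ← real_smul_eq, ← real_smul_eq, smul_smul, ← add_smul]
    congr 1
    rw [mul_comm]
    exact (Complex.re_add_im (t i)).symm
  simp only [h, Finset.sum_add_distrib, map_sub, map_sum, smul_sub, Finset.smul_sum]
  abel

theorem isBetti_complexify_aux {ι : W →ₗ[ℝ] V} {σ : V → V} (h : RealStr ι σ) {Z B : Submodule ℂ V}
    {Z' B' : Submodule ℝ W} (hσZ : ∀ v ∈ Z, σ v ∈ Z) (hσB : ∀ v ∈ B, σ v ∈ B)
    (hZ : ∀ w, ι w ∈ Z ↔ w ∈ Z') (hB : ∀ w, ι w ∈ B ↔ w ∈ B') {n : ℕ} (hb : IsBetti Z' B' n) :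
    IsBetti Z B n := by
  obtain ⟨a, ha, hu⟩ := hb
  refine ⟨fun i => ι (a i), fun i => (hZ _).2 (ha i), ?_⟩
  intro c hc
  obtain ⟨x, y, hxy, -, -⟩ := h.decomp c
  rw [hxy, h.mem_iff hσZ hZ] at hc
  obtain ⟨t, ht, ht2⟩ := hu x hc.1
  obtain ⟨s, hs, hs2⟩ := hu y hc.2
  have key : ∀ r : Fin n → ℂ, (c - ∑ i, r i • ι (a i) ∈ B) ↔
      (x - ∑ i, (r i).re • a i ∈ B') ∧ (y - ∑ i, (r i).im • a i ∈ B') := by
    intro r
    rw [hxy, RealStr.comb, h.mem_iff hσB hB]
  refine ⟨fun i => ⟨t i, s i⟩, (key _).2 ⟨ht, hs⟩, ?_⟩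
  intro r hr
  rw [key] at hr
  have e1 := ht2 _ hr.1
  have e2 := hs2 _ hr.2
  funext i
  apply Complex.ext
  · exact congrFun e1 i
  · exact congrFun e2 i

theorem isBetti_complexify {ι : W →ₗ[ℝ] V} {σ : V → V} (h : RealStr ι σ) {Z B : Submodule ℂ V}
    {Z' B' : Submodule ℝ W} (hσZ : ∀ v ∈ Z, σ v ∈ Z) (hσB : ∀ v ∈ B, σ v ∈ B)
    (hZ : ∀ w, ι w ∈ Z ↔ w ∈ Z') (hB : ∀ w, ι w ∈ B ↔ w ∈ B') (n : ℕ) :
    IsBetti Z' B' n ↔ IsBetti Z B n := by
  refine ⟨isBetti_complexify_aux h hσZ hσB hZ hB, fun hb => ?_⟩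
  have hfin : Module.Finite ℝ (HQ Z' B') := by
    have h1 := (isBetti_iff_finrank Z B n).1 hb
    have hC : Module.Finite ℂ (HQ Z B) := h1.1
    have hR : Module.Finite ℝ (HQ Z B) := Module.Finite.trans ℂ (HQ Z B)
    let f : Z' →ₗ[ℝ] HQ Z B :=
      { toFun := fun w => Submodule.Quotient.mk ⟨ι w, (hZ w).2 w.2⟩
        map_add' := by
          intro u v
          rw [← Submodule.Quotient.mk_add]
          congr 1
          ext
          simp
        map_smul' := by
          intro r v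
          change _ = r • (Submodule.Quotient.mk _ : HQ Z B)
          have e : r • (Submodule.Quotient.mk (⟨ι v, (hZ v).2 v.2⟩ : Z) : HQ Z B) =
            (r : ℂ) • (Submodule.Quotient.mk (⟨ι v, (hZ v).2 v.2⟩ : Z) : HQ Z B) :=
              (real_smul_eq r _).symm
          rw [e, ← Submodule.Quotient.mk_smul]
          congr 1
          apply Subtype.ext
          change ι (r • (v : W)) = (r : ℂ) • ι v
          rw [map_smul, real_smul_eq] }
    have hk : LinearMap.ker f = B'.comap Z'.subtype := by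
      ext w
      rw [LinearMap.mem_ker, Submodule.mem_comap]
      change (Submodule.Quotient.mk (⟨ι w, (hZ w).2 w.2⟩ : Z) : HQ Z B) = 0 ↔ _
      rw [Submodule.Quotient.mk_eq_zero, Submodule.mem_comap]
      exact hB w
    have e := f.quotKerEquivRange
    rw [hk] at e
    exact Module.Finite.equiv e.symm
  have hr : IsBetti Z' B' (Module.finrank ℝ (HQ Z' B')) :=
    (isBetti_iff_finrank Z' B' _).2 ⟨hfin, rfl⟩
  have hc := isBetti_complexify_aux h hσZ hσB hZ hB hr
  rwa [isBetti_unique hc hb] at hr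

end complexify

end Vale.Agent.P267.H857
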