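import Vale.Agent.P267.H857.Lin

/-!
# P267 BRIDGE-ALT (2): exterior derivatives in coordinates
-/

open scoped ComplexConjugate ContDiff
open Matrix

noncomputable section

namespace Vale.Agent.P267.H857

open Vale.Agent.P267.FL

section diff

variable {E : Type*} [NormedAddCommGroup E] [NormedSpace ℝ E]

theorem contDiffAt_alt1 {n : WithTop ℕ∞} {c a : E → Fin 2 → ℂ} {x : E}
    (hc : ∀ i, ContDiffAt ℝ n (fun z => c z i) x) (ha : ∀ i, ContDiffAt ℝ n (fun z => a z i) x) :
    ContDiffAt ℝ n (fun z => alt1 (c z) (a z)) x := by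
  unfold alt1
  exact (ContDiffAt.sum fun i _ => (hc i).smul contDiffAt_const).add
    (ContDiffAt.sum fun i _ => (ha i).smul contDiffAt_const)

theorem contDiffAt_alt2 {n : WithTop ℕ∞} {f20 f02 : E → ℂ} {f11 : E → Matrix (Fin 2) (Fin 2) ℂ}
    {x : E} (h20 : ContDiffAt ℝ n f20 x) (h11 : ∀ i j, ContDiffAt ℝ n (fun z => f11 z i j) x)
    (h02 : ContDiffAt ℝ n f02 x) :
    ContDiffAt ℝ n (fun z => alt2 (f20 z) (f11 z) (f02 z)) x := by
  unfold alt2
  exact ((h20.smul contDiffAt_const).add (ContDiffAt.sum fun i _ => ContDiffAt.sum fun j _ =>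
    (h11 i j).smul contDiffAt_const)).add (h02.smul contDiffAt_const)

theorem contDiffAt_alt3 {n : WithTop ℕ∞} {c a : E → Fin 2 → ℂ} {x : E}
    (hc : ∀ i, ContDiffAt ℝ n (fun z => c z i) x) (ha : ∀ i, ContDiffAt ℝ n (fun z => a z i) x) :
    ContDiffAt ℝ n (fun z => alt3 (c z) (a z)) x := by
  unfold alt3
  exact (ContDiffAt.sum fun i _ => (hc i).smul contDiffAt_const).add
    (ContDiffAt.sum fun i _ => (ha i).smul contDiffAt_const)

/-- evaluation of a form-valued smooth map -/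
theorem contDiffAt_eval {k : ℕ} {n : WithTop ℕ∞} {f : E → C2 [⋀^Fin k]→L[ℝ] ℂ} {x : E}
    (hf : ContDiffAt ℝ n f x) (v : Fin k → C2) : ContDiffAt ℝ n (fun z => f z v) x :=
  (ContinuousAlternatingMap.apply ℝ C2 ℂ v).contDiff.contDiffAt.comp x hf

theorem contDiffAt_cf10 {n : WithTop ℕ∞} {f : E → C2 [⋀^Fin 1]→L[ℝ] ℂ} {x : E}
    (hf : ContDiffAt ℝ n f x) (i : Fin 2) : ContDiffAt ℝ n (fun z => cf10 (f z) i) x := by
  unfold cf10
  exact contDiffAt_const.mul ((contDiffAt_eval hf _).sub (contDiffAt_const.mul (contDiffAt_eval hf _)))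

theorem contDiffAt_cf01 {n : WithTop ℕ∞} {f : E → C2 [⋀^Fin 1]→L[ℝ] ℂ} {x : E}
    (hf : ContDiffAt ℝ n f x) (i : Fin 2) : ContDiffAt ℝ n (fun z => cf01 (f z) i) x := by
  unfold cf01
  exact contDiffAt_const.mul ((contDiffAt_eval hf _).add (contDiffAt_const.mul (contDiffAt_eval hf _)))

theorem contDiffAt_cf20 {n : WithTop ℕ∞} {f : E → C2 [⋀^Fin 2]→L[ℝ] ℂ} {x : E}
    (hf : ContDiffAt ℝ n f x) : ContDiffAt ℝ n (fun z => cf20 (f z)) x := by
  unfold cf20
  exact contDiffAt_const.mul ((((contDiffAt_eval hf _).sub (contDiffAt_const.mul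
    (contDiffAt_eval hf _))).sub (contDiffAt_const.mul (contDiffAt_eval hf _))).sub
      (contDiffAt_eval hf _))

theorem contDiffAt_cf02 {n : WithTop ℕ∞} {f : E → C2 [⋀^Fin 2]→L[ℝ] ℂ} {x : E}
    (hf : ContDiffAt ℝ n f x) : ContDiffAt ℝ n (fun z => cf02 (f z)) x := by
  unfold cf02
  exact contDiffAt_const.mul ((((contDiffAt_eval hf _).add (contDiffAt_const.mul
    (contDiffAt_eval hf _))).add (contDiffAt_const.mul (contDiffAt_eval hf _))).sub
      (contDiffAt_eval hf _))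

theorem contDiffAt_cf11 {n : WithTop ℕ∞} {f : E → C2 [⋀^Fin 2]→L[ℝ] ℂ} {x : E}
    (hf : ContDiffAt ℝ n f x) (i j : Fin 2) : ContDiffAt ℝ n (fun z => cf11 (f z) i j) x := by
  unfold cf11
  exact contDiffAt_const.mul ((((contDiffAt_eval hf _).add (contDiffAt_const.mul
    (contDiffAt_eval hf _))).sub (contDiffAt_const.mul (contDiffAt_eval hf _))).add
      (contDiffAt_eval hf _))

end diff

/-! ### exterior derivative -/

theorem extDeriv_fun (s : C2 → ℂ) (x : C2) :
    extDeriv (fun z => ContinuousAlternatingMap.constOfIsEmpty ℝ C2 (Fin 0) (s z)) x =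
      alt1 (fun i => dz i s x) (fun i => dzb i s x) := by
  rw [extDeriv_constOfIsEmpty]
  ext v
  rw [alt1_apply]
  change fderiv ℝ s x (v 0) = _
  rw [fderiv_eq]

theorem extDeriv_alt1 {c a : C2 → Fin 2 → ℂ} {x : C2}
    (hc : ∀ i, DifferentiableAt ℝ (fun z => c z i) x)
    (ha : ∀ i, DifferentiableAt ℝ (fun z => a z i) x) :
    extDeriv (fun z => alt1 (c z) (a z)) x =
      alt2 (dz 0 (fun z => c z 1) x - dz 1 (fun z => c z 0) x)
        (Matrix.of fun i j => dz i (fun z => a z j) x - dzb j (fun z => c z i) x)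
        (dzb 0 (fun z => a z 1) x - dzb 1 (fun z => a z 0) x) := by
  have hd : DifferentiableAt ℝ (fun z => alt1 (c z) (a z)) x := by
    unfold alt1
    exact (DifferentiableAt.fun_sum fun i _ => (hc i).smul (differentiableAt_const _)).add
      (DifferentiableAt.fun_sum fun i _ => (ha i).smul (differentiableAt_const _))
  ext v
  rw [extDeriv_apply hd, Fin.sum_univ_two]
  have key : ∀ (w : Fin 1 → C2) (u : C2), fderiv ℝ (fun z => alt1 (c z) (a z) w) x u =
      (fderiv ℝ (fun z => c z 0) x u * w 0 0 + fderiv ℝ (fun z => c z 1) x u * w 0 1) +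
      (fderiv ℝ (fun z => a z 0) x u * conj (w 0 0) +
        fderiv ℝ (fun z => a z 1) x u * conj (w 0 1)) := by
    intro w u
    have h1 := (((hc 0).hasFDerivAt.mul_const' (w 0 0)).add
      ((hc 1).hasFDerivAt.mul_const' (w 0 1))).add
        (((ha 0).hasFDerivAt.mul_const' (conj (w 0 0))).add
          ((ha 1).hasFDerivAt.mul_const' (conj (w 0 1))))
    have h2 : (fun z => alt1 (c z) (a z) w) = fun z => (c z 0 * w 0 0 + c z 1 * w 0 1) +
        (a z 0 * conj (w 0 0) + a z 1 * conj (w 0 1)) := by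
      funext z
      rw [alt1_apply]
    rw [h2]
    have h3 := congrArg (fun L : C2 →L[ℝ] ℂ => L u) h1.fderiv
    refine h3.trans ?_
    simp
    ring
  rw [key, key, alt2_apply]
  simp only [fderiv_eq, Matrix.of_apply]
  have r0 : (Fin.removeNth (0 : Fin 2) v) 0 = v 1 := rfl
  have r1 : (Fin.removeNth (1 : Fin 2) v) 0 = v 0 := rfl
  rw [r0, r1]
  simp only [Fin.val_zero, pow_zero, one_smul, Fin.val_one, pow_one, neg_smul]
  ring

theorem extDeriv_alt2 {f20 f02 : C2 → ℂ} {f11 : C2 → Matrix (Fin 2) (Fin 2) ℂ} {x : C2}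
    (h20 : DifferentiableAt ℝ f20 x) (h11 : ∀ i j, DifferentiableAt ℝ (fun z => f11 z i j) x)
    (h02 : DifferentiableAt ℝ f02 x) :
    extDeriv (fun z => alt2 (f20 z) (f11 z) (f02 z)) x =
      alt3 (fun j => dzb j f20 x + (dz 0 (fun z => f11 z 1 j) x - dz 1 (fun z => f11 z 0 j) x))
        (fun i => dz i f02 x - (dzb 0 (fun z => f11 z i 1) x - dzb 1 (fun z => f11 z i 0) x)) := by
  have hd : DifferentiableAt ℝ (fun z => alt2 (f20 z) (f11 z) (f02 z)) x := by
    unfold alt2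
    exact ((h20.smul (differentiableAt_const _)).add (DifferentiableAt.fun_sum fun i _ =>
      DifferentiableAt.fun_sum fun j _ => (h11 i j).smul (differentiableAt_const _))).add
        (h02.smul (differentiableAt_const _))
  ext v
  rw [extDeriv_apply hd, Fin.sum_univ_three]
  have key : ∀ (w : Fin 2 → C2) (u : C2),
      fderiv ℝ (fun z => alt2 (f20 z) (f11 z) (f02 z) w) x u =
      alt2 (fderiv ℝ f20 x u) (Matrix.of fun i j => fderiv ℝ (fun z => f11 z i j) x u)
        (fderiv ℝ f02 x u) w := by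
    intro w u
    have h1 := ((h20.hasFDerivAt.mul_const' (w 0 0 * w 1 1 - w 0 1 * w 1 0)).add
      (((((h11 0 0).hasFDerivAt.mul_const' (w 0 0 * conj (w 1 0) - conj (w 0 0) * w 1 0)).add
        ((h11 0 1).hasFDerivAt.mul_const' (w 0 0 * conj (w 1 1) - conj (w 0 1) * w 1 0))).add
        ((h11 1 0).hasFDerivAt.mul_const' (w 0 1 * conj (w 1 0) - conj (w 0 0) * w 1 1))).add
        ((h11 1 1).hasFDerivAt.mul_const' (w 0 1 * conj (w 1 1) - conj (w 0 1) * w 1 1)))).add
      (h02.hasFDerivAt.mul_const' (conj (w 0 0) * conj (w 1 1) - conj (w 0 1) * conj (w 1 0)))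
    have h2 : HasFDerivAt (fun z => alt2 (f20 z) (f11 z) (f02 z) w) _ x :=
      h1.congr_of_eventuallyEq (Filter.Eventually.of_forall fun z => alt2_apply _ _ _ _)
    rw [h2.fderiv]
    rw [alt2_apply]
    simp
  rw [key, key, key, alt3_apply, alt2_apply, alt2_apply, alt2_apply]
  simp only [fderiv_eq, Matrix.of_apply, Fin.sum_univ_two]
  have r00 : (Fin.removeNth (0 : Fin 3) v) 0 = v 1 := rfl
  have r01 : (Fin.removeNth (0 : Fin 3) v) 1 = v 2 := rfl
  have r10 : (Fin.removeNth (1 : Fin 3) v) 0 = v 0 := rfl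
  have r11 : (Fin.removeNth (1 : Fin 3) v) 1 = v 2 := rfl
  have r20 : (Fin.removeNth (2 : Fin 3) v) 0 = v 0 := rfl
  have r21 : (Fin.removeNth (2 : Fin 3) v) 1 = v 1 := rfl
  rw [r00, r01, r10, r11, r20, r21]
  have e0 : ((0 : Fin 3) : ℕ) = 0 := rfl
  have e1 : ((1 : Fin 3) : ℕ) = 1 := rfl
  have e2 : ((2 : Fin 3) : ℕ) = 2 := rfl
  simp only [e0, e1, e2, pow_zero, one_smul, pow_one, neg_smul, even_two, Even.neg_pow, one_pow]
  ring

end Vale.Agent.P267.H857
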