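import Vale.Agent.P267.H399.Defs
import Mathlib.Analysis.Calculus.DifferentialForm.Basic

/-!
# P267 BRIDGE-ALT (1): linear algebra

Real-alternating complex-valued forms on `ℂ²` and their components by types.
-/

open scoped ComplexConjugate
open Matrix

noncomputable section

namespace Vale.Agent.P267.H857

open Vale.Agent.P267.FL

/-- the covector `dz_i` -/
def zc (i : Fin 2) : C2 →L[ℝ] ℂ := (ContinuousLinearMap.proj (R := ℝ) (φ := fun _ : Fin 2 => ℂ) i)

/-- the covector `dz̄_i` -/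
def zcb (i : Fin 2) : C2 →L[ℝ] ℂ :=
  (Complex.conjCLE : ℂ →L[ℝ] ℂ).comp (zc i)

@[simp] theorem zc_apply (i : Fin 2) (v : C2) : zc i v = v i := rfl
@[simp] theorem zcb_apply (i : Fin 2) (v : C2) : zcb i v = conj (v i) := rfl

/-- the wedge product of `k` covectors -/
def wdg {k : ℕ} (f : Fin k → (C2 →L[ℝ] ℂ)) : C2 [⋀^Fin k]→L[ℝ] ℂ where
  toMultilinearMap := (((Matrix.detRowAlternating (R := ℂ) (n := Fin k)).toMultilinearMap.restrictScalars
    ℝ).compLinearMap fun _ => (LinearMap.pi fun i => ((f i : C2 →L[ℝ] ℂ) : C2 →ₗ[ℝ] ℂ)))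
  cont := by
    change Continuous fun v : Fin k → C2 => Matrix.det fun j i => f i (v j)
    apply Continuous.matrix_det
    fun_prop
  map_eq_zero_of_eq' := by
    intro v i j h hij
    change Matrix.det (fun j i => f i (v j)) = 0
    apply Matrix.det_zero_of_row_eq hij
    funext l
    simp [h]

theorem wdg_apply {k : ℕ} (f : Fin k → (C2 →L[ℝ] ℂ)) (v : Fin k → C2) :
    wdg f v = (Matrix.of fun j i => f i (v j)).det := rfl

/-- one-forms -/
def alt1 (c a : Fin 2 → ℂ) : C2 [⋀^Fin 1]→L[ℝ] ℂ :=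
  ∑ i, c i • wdg ![zc i] + ∑ i, a i • wdg ![zcb i]

/-- two-forms -/
def alt2 (f20 : ℂ) (f11 : Matrix (Fin 2) (Fin 2) ℂ) (f02 : ℂ) : C2 [⋀^Fin 2]→L[ℝ] ℂ :=
  f20 • wdg ![zc 0, zc 1] + ∑ i, ∑ j, f11 i j • wdg ![zc i, zcb j] + f02 • wdg ![zcb 0, zcb 1]

/-- three-forms -/
def alt3 (g21 g12 : Fin 2 → ℂ) : C2 [⋀^Fin 3]→L[ℝ] ℂ :=
  ∑ j, g21 j • wdg ![zc 0, zc 1, zcb j] + ∑ i, g12 i • wdg ![zc i, zcb 0, zcb 1]

/-- four-forms -/
def alt4 (b : ℂ) : C2 [⋀^Fin 4]→L[ℝ] ℂ := b • wdg ![zc 0, zc 1, zcb 0, zcb 1]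

theorem alt1_apply (c a : Fin 2 → ℂ) (v : Fin 1 → C2) :
    alt1 c a v = c 0 * v 0 0 + c 1 * v 0 1 + (a 0 * conj (v 0 0) + a 1 * conj (v 0 1)) := by
  simp [alt1, wdg_apply, Fin.sum_univ_two, Matrix.det_unique]

theorem alt2_apply (f20 : ℂ) (f11 : Matrix (Fin 2) (Fin 2) ℂ) (f02 : ℂ) (v : Fin 2 → C2) :
    alt2 f20 f11 f02 v = f20 * (v 0 0 * v 1 1 - v 0 1 * v 1 0) +
      (f11 0 0 * (v 0 0 * conj (v 1 0) - conj (v 0 0) * v 1 0) +
       f11 0 1 * (v 0 0 * conj (v 1 1) - conj (v 0 1) * v 1 0) +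
       f11 1 0 * (v 0 1 * conj (v 1 0) - conj (v 0 0) * v 1 1) +
       f11 1 1 * (v 0 1 * conj (v 1 1) - conj (v 0 1) * v 1 1)) +
      f02 * (conj (v 0 0) * conj (v 1 1) - conj (v 0 1) * conj (v 1 0)) := by
  simp [alt2, wdg_apply, Fin.sum_univ_two, Matrix.det_fin_two]
  ring

theorem alt3_apply (g21 g12 : Fin 2 → ℂ) (v : Fin 3 → C2) :
    alt3 g21 g12 v =
      (∑ j, g21 j * ((v 0 0 * v 1 1 - v 0 1 * v 1 0) * conj (v 2 j) -
        (v 0 0 * v 2 1 - v 0 1 * v 2 0) * conj (v 1 j) +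
        (v 1 0 * v 2 1 - v 1 1 * v 2 0) * conj (v 0 j))) +
      ∑ i, g12 i * (v 0 i * (conj (v 1 0) * conj (v 2 1) - conj (v 1 1) * conj (v 2 0)) -
        v 1 i * (conj (v 0 0) * conj (v 2 1) - conj (v 0 1) * conj (v 2 0)) +
        v 2 i * (conj (v 0 0) * conj (v 1 1) - conj (v 0 1) * conj (v 1 0))) := by
  simp [alt3, wdg_apply, Fin.sum_univ_two, Matrix.det_fin_three]
  ring

/-- real basis vectors -/
def be (i : Fin 2) : C2 := Pi.single i 1
/-- real basis vectors -/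
def bi (i : Fin 2) : C2 := Pi.single i Complex.I

theorem vec_decomp (v : C2) : v = (v 0).re • be 0 + (v 0).im • bi 0 + (v 1).re • be 1 +
    (v 1).im • bi 1 := by
  funext i
  fin_cases i
  · simp [be, bi]
  · simp [be, bi]

theorem clm_decomp (L : C2 →L[ℝ] ℂ) (v : C2) :
    L v = (∑ i, ((1 / 2 : ℂ) * (L (be i) - Complex.I * L (bi i))) * v i) +
      ∑ i, ((1 / 2 : ℂ) * (L (be i) + Complex.I * L (bi i))) * conj (v i) := by
  conv_lhs => rw [vec_decomp v]
  simp only [map_add, map_smul, Fin.sum_univ_two]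
  apply Complex.ext
  · simp
    ring
  · simp
    ring

/-- derivative in terms of Wirtinger derivatives -/
theorem fderiv_eq (g : C2 → ℂ) (x v : C2) :
    fderiv ℝ g x v = (dz 0 g x * v 0 + dz 1 g x * v 1) +
      (dzb 0 g x * conj (v 0) + dzb 1 g x * conj (v 1)) := by
  rw [clm_decomp (fderiv ℝ g x) v, Fin.sum_univ_two, Fin.sum_univ_two]
  rfl

/-! ### components -/

/-- `(1,0)`-components of a one-form -/
def cf10 (α : C2 [⋀^Fin 1]→L[ℝ] ℂ) (i : Fin 2) : ℂ :=
  (1 / 2 : ℂ) * (α ![be i] - Complex.I * α ![bi i])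
/-- `(0,1)`-components of a one-form -/
def cf01 (α : C2 [⋀^Fin 1]→L[ℝ] ℂ) (i : Fin 2) : ℂ :=
  (1 / 2 : ℂ) * (α ![be i] + Complex.I * α ![bi i])

/-- `(2,0)`-component of a two-form -/
def cf20 (β : C2 [⋀^Fin 2]→L[ℝ] ℂ) : ℂ :=
  (1 / 4 : ℂ) * (β ![be 0, be 1] - Complex.I * β ![be 0, bi 1] - Complex.I * β ![bi 0, be 1] -
    β ![bi 0, bi 1])
/-- `(1,1)`-components of a two-form -/
def cf11 (β : C2 [⋀^Fin 2]→L[ℝ] ℂ) : Matrix (Fin 2) (Fin 2) ℂ := Matrix.of fun i j =>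
  (1 / 4 : ℂ) * (β ![be i, be j] + Complex.I * β ![be i, bi j] - Complex.I * β ![bi i, be j] +
    β ![bi i, bi j])
/-- `(0,2)`-component of a two-form -/
def cf02 (β : C2 [⋀^Fin 2]→L[ℝ] ℂ) : ℂ :=
  (1 / 4 : ℂ) * (β ![be 0, be 1] + Complex.I * β ![be 0, bi 1] + Complex.I * β ![bi 0, be 1] -
    β ![bi 0, bi 1])

theorem cf10_alt1 (c a : Fin 2 → ℂ) : cf10 (alt1 c a) = c := by
  funext i
  fin_cases i <;>
  · simp only [cf10, alt1_apply]
    apply Complex.ext <;> simp [be, bi] <;> ring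

theorem cf01_alt1 (c a : Fin 2 → ℂ) : cf01 (alt1 c a) = a := by
  funext i
  fin_cases i <;>
  · simp only [cf01, alt1_apply]
    apply Complex.ext <;> simp [be, bi] <;> ring

theorem alt1_cf (α : C2 [⋀^Fin 1]→L[ℝ] ℂ) : alt1 (cf10 α) (cf01 α) = α := by
  have key : ∀ x : C2, α ![x] = (∑ i, cf10 α i * x i) + ∑ i, cf01 α i * conj (x i) := by
    intro x
    have h := clm_decomp ((ContinuousAlternatingMap.ofSubsingleton ℝ C2 ℂ (0 : Fin 1)).symm α) x
    have h2 : ∀ y : C2, (ContinuousAlternatingMap.ofSubsingleton ℝ C2 ℂ (0 : Fin 1)).symm α y =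
        α ![y] := by
      intro y
      change α (fun _ => y) = α ![y]
      congr 1
      funext i
      fin_cases i
      rfl
    rw [h2] at h
    rw [h]
    simp only [h2]
    rfl
  ext v
  have hv : v = ![v 0] := by
    funext i
    fin_cases i
    rfl
  rw [hv, key, alt1_apply, Fin.sum_univ_two, Fin.sum_univ_two]
  rfl

theorem cf20_alt2 (f20 : ℂ) (f11 : Matrix (Fin 2) (Fin 2) ℂ) (f02 : ℂ) :
    cf20 (alt2 f20 f11 f02) = f20 := by
  simp only [cf20, alt2_apply]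
  apply Complex.ext <;> simp [be, bi] <;> ring

theorem cf02_alt2 (f20 : ℂ) (f11 : Matrix (Fin 2) (Fin 2) ℂ) (f02 : ℂ) :
    cf02 (alt2 f20 f11 f02) = f02 := by
  simp only [cf02, alt2_apply]
  apply Complex.ext <;> simp [be, bi] <;> ring

theorem cf11_alt2 (f20 : ℂ) (f11 : Matrix (Fin 2) (Fin 2) ℂ) (f02 : ℂ) :
    cf11 (alt2 f20 f11 f02) = f11 := by
  ext i j
  fin_cases i <;> fin_cases j <;>
  · simp only [cf11, alt2_apply, Matrix.of_apply]
    apply Complex.ext <;> simp [be, bi] <;> ring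

/-- the value of a two-form as a bilinear form -/
theorem two_add_left (β : C2 [⋀^Fin 2]→L[ℝ] ℂ) (x x' y : C2) :
    β ![x + x', y] = β ![x, y] + β ![x', y] := by
  have h := β.map_update_add ![x, y] 0 x x'
  have e1 : ∀ t : C2, Function.update ![x, y] 0 t = ![t, y] := by
    intro t; funext i; fin_cases i <;> simp
  simpa only [e1] using h

theorem two_add_right (β : C2 [⋀^Fin 2]→L[ℝ] ℂ) (x y y' : C2) :
    β ![x, y + y'] = β ![x, y] + β ![x, y'] := by
  have h := β.map_update_add ![x, y] 1 y y'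
  have e1 : ∀ t : C2, Function.update ![x, y] 1 t = ![x, t] := by
    intro t; funext i; fin_cases i <;> simp
  simpa only [e1] using h

theorem two_smul_left (β : C2 [⋀^Fin 2]→L[ℝ] ℂ) (r : ℝ) (x y : C2) :
    β ![r • x, y] = r • β ![x, y] := by
  have h := β.map_update_smul ![x, y] 0 r x
  have e1 : ∀ t : C2, Function.update ![x, y] 0 t = ![t, y] := by
    intro t; funext i; fin_cases i <;> simp
  simpa only [e1] using h

theorem two_smul_right (β : C2 [⋀^Fin 2]→L[ℝ] ℂ) (r : ℝ) (x y : C2) :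
    β ![x, r • y] = r • β ![x, y] := by
  have h := β.map_update_smul ![x, y] 1 r y
  have e1 : ∀ t : C2, Function.update ![x, y] 1 t = ![x, t] := by
    intro t; funext i; fin_cases i <;> simp
  simpa only [e1] using h

theorem two_self (β : C2 [⋀^Fin 2]→L[ℝ] ℂ) (x : C2) : β ![x, x] = 0 :=
  β.map_eq_zero_of_eq ![x, x] (i := 0) (j := 1) (by simp) (by decide)

theorem two_swap (β : C2 [⋀^Fin 2]→L[ℝ] ℂ) (x y : C2) : β ![y, x] = -β ![x, y] := by
  have h := two_self β (x + y)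
  rw [two_add_left, two_add_right, two_add_right, two_self, two_self, zero_add, add_zero] at h
  exact eq_neg_of_add_eq_zero_right h

theorem alt2_cf (β : C2 [⋀^Fin 2]→L[ℝ] ℂ) : alt2 (cf20 β) (cf11 β) (cf02 β) = β := by
  ext v
  have hv : v = ![v 0, v 1] := by
    funext i
    fin_cases i <;> rfl
  rw [hv]
  generalize v 0 = x
  generalize v 1 = y
  clear hv v
  rw [alt2_apply]
  conv_rhs => rw [vec_decomp x, vec_decomp y]
  simp only [two_add_left, two_add_right, two_smul_left, two_smul_right, two_self]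
  rw [two_swap β (be 0) (bi 0), two_swap β (be 0) (be 1), two_swap β (be 0) (bi 1),
    two_swap β (bi 0) (be 1), two_swap β (bi 0) (bi 1), two_swap β (be 1) (bi 1)]
  simp only [cf20, cf11, cf02, Matrix.of_apply, two_self]
  rw [two_swap β (be 0) (bi 0), two_swap β (be 0) (be 1), two_swap β (be 0) (bi 1),
    two_swap β (bi 0) (be 1), two_swap β (bi 0) (bi 1), two_swap β (be 1) (bi 1)]
  apply Complex.ext
  · simp
    ring
  · simp
    ring

/-! ### pullback by a complex linear map -/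

/-- the real linear map `v ↦ M v` -/
def mulL (M : Matrix (Fin 2) (Fin 2) ℂ) : C2 →L[ℝ] C2 :=
  (LinearMap.toContinuousLinearMap (Matrix.mulVecLin M)).restrictScalars ℝ

theorem mulL_apply (M : Matrix (Fin 2) (Fin 2) ℂ) (v : C2) : mulL M v = M *ᵥ v := rfl

theorem alt1_comp (c a : Fin 2 → ℂ) (M : Matrix (Fin 2) (Fin 2) ℂ) :
    (alt1 c a).compContinuousLinearMap (mulL M) =
      alt1 (fun i => ∑ p, M p i * c p) (fun i => ∑ p, conj (M p i) * a p) := by
  ext v
  rw [ContinuousAlternatingMap.compContinuousLinearMap_apply, alt1_apply, alt1_apply]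
  simp only [Function.comp_apply, mulL_apply, Matrix.mulVec, dotProduct, Fin.sum_univ_two, map_add,
    map_mul]
  ring

theorem alt2_comp (f20 : ℂ) (f11 : Matrix (Fin 2) (Fin 2) ℂ) (f02 : ℂ)
    (M : Matrix (Fin 2) (Fin 2) ℂ) :
    (alt2 f20 f11 f02).compContinuousLinearMap (mulL M) =
      alt2 (M.det * f20) (Matrix.of fun i j => ∑ p, ∑ q, (M p i * conj (M q j)) * f11 p q)
        (conj M.det * f02) := by
  ext v
  rw [ContinuousAlternatingMap.compContinuousLinearMap_apply, alt2_apply, alt2_apply]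
  simp only [Function.comp_apply, mulL_apply, Matrix.mulVec, dotProduct, Fin.sum_univ_two, map_add,
    map_mul, map_sub, Matrix.of_apply, Matrix.det_fin_two]
  ring

theorem alt3_comp (g21 g12 : Fin 2 → ℂ) (M : Matrix (Fin 2) (Fin 2) ℂ) :
    (alt3 g21 g12).compContinuousLinearMap (mulL M) =
      alt3 (fun j => M.det * ∑ p, conj (M p j) * g21 p)
        (fun i => conj M.det * ∑ p, M p i * g12 p) := by
  ext v
  rw [ContinuousAlternatingMap.compContinuousLinearMap_apply, alt3_apply, alt3_apply]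
  simp only [Function.comp_apply, mulL_apply, Matrix.mulVec, dotProduct, Fin.sum_univ_two, map_add,
    map_mul, map_sub, Matrix.det_fin_two]
  ring

end Vale.Agent.P267.H857
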